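import Crest.Agent.R192.Iface
import Crest.Agent.R192.Ker
import Crest.Agent.R192.Lab

/-!
R192/Glue/Est: estimates for the total form `alp g (Psi L P o)`.
-/

set_option autoImplicit false

open MeasureTheory Complex Filter Topology
open scoped Nat ComplexConjugate

noncomputable section

namespace Crest.Agent.R192
variable {G : Type} [Group G] {L : Len G} {P : Par} {g : G}

theorem Psi_eq (o : Omg P g) : Psi L P o = fun β β' =>
    (P.r1 : ℂ)⁻¹ * PsiK L P.R' P.kz P.p1 β β' + (P.rho : ℂ)⁻¹ * PsiK L P.R' P.kz P.kk β β' + PsiN L P o β β' := rfl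

theorem Valid.stG1 (hG : StG) (h : Valid L P) : Nice g (PsiK L P.R' P.kz P.p1) ∧
    ∀ (n : ℕ) (x : Fin (n + 1) → G) (v : Fin (n + 1) → ℝ), Ord v →
    (∫ σ in (0 : ℝ)..1, AA L P.R' P.p1 P.kz (bs g x σ v)) - 4 * P.R' * (n + 1) * P.tau0 ≤
      (Dv g (PsiK L P.R' P.kz P.p1) x v).re ∧
    (∀ l, ‖alp g (PsiK L P.R' P.kz P.p1) n x v l‖ ≤ 4 * lam L P.R' g x l) ∧
    ∀ i l, ‖Mx g (PsiK L P.R' P.kz P.p1) x v i l‖ ≤ 8 * lam L P.R' g x l ∧
      (¬ near (2 * P.tau) v i l → Mx g (PsiK L P.R' P.kz P.p1) x v i l = 0) :=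
  hG G L P.R' g _ _ _ _ h.cdf_kz h.cdf_p1 h.tau0_pos (by linarith [h.tau0_le, h.tau_pos])

theorem Valid.stG2 (hG : StG) (h : Valid L P) : Nice g (PsiK L P.R' P.kz P.kk) ∧
    ∀ (n : ℕ) (x : Fin (n + 1) → G) (v : Fin (n + 1) → ℝ), Ord v →
    (∫ σ in (0 : ℝ)..1, AA L P.R' P.kk P.kz (bs g x σ v)) - 4 * P.R' * (n + 1) * P.tau0 ≤
      (Dv g (PsiK L P.R' P.kz P.kk) x v).re ∧
    (∀ l, ‖alp g (PsiK L P.R' P.kz P.kk) n x v l‖ ≤ 4 * lam L P.R' g x l) ∧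
    ∀ i l, ‖Mx g (PsiK L P.R' P.kz P.kk) x v i l‖ ≤ 8 * lam L P.R' g x l ∧
      (¬ near (P.q * P.tau) v i l → Mx g (PsiK L P.R' P.kz P.kk) x v i l = 0) :=
  hG G L P.R' g _ _ _ _ h.cdf_kz h.cdf_kk h.tau0_pos (by
    have h1 : (1 : ℝ) ≤ P.q := by exact_mod_cast h.q_pos
    nlinarith [h.tau0_le, h.tau_pos])

theorem nice_Psi (hE : StE) (hG : StG) (hS : StHS) (h : Valid L P) (hg : Hyp L P g) (o : Omg P g) :
    Nice g (Psi L P o) :=
  ((hE G g).2 _ _ _ _ _ (h.stG1 hG).1 (h.stG2 hG).1 ((hS G L P g h hg).1 o)).1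

def K0 (P : Par) : ℝ := 8 + 4 * P.gmax * P.Gam * P.HH ^ 2

/-- `D ≥ ∫ (rr/(2 r1) + ro/(2 rho) + ∑ ‖ss‖²) - 8 R' m tau0 ≥ 1/8 - 1/16` -/
theorem D_lower (hE : StE) (hG : StG) (hG2 : StG2) (hS : StHS) (hHG : StHG) (hHN : StHN) (h : Valid L P)
    (hg : Hyp L P g) {o : Omg P g} (ho : FGood L P o.1) {n : ℕ} (hn : n + 1 ≤ P.m) (x : Fin (n + 1) → G)
    {v : Fin (n + 1) → ℝ} (hv : Ord v) : 1 / 16 ≤ (∑ l, alp g (Psi L P o) n x v l).re := by
  have n1 := h.stG1 (g := g) hG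
  have n2 := h.stG2 (g := g) hG
  have n3 := (hS G L P g h hg).1 o
  have hr1 : (0 : ℝ) < P.r1 := by exact_mod_cast h.r1_pos
  have hrho : (0 : ℝ) < P.rho := by exact_mod_cast h.rho_pos
  have hr1' : (1 : ℝ) ≤ P.r1 := by exact_mod_cast h.r1_pos
  have hrho' : (1 : ℝ) ≤ P.rho := by exact_mod_cast h.rho_pos
  rw [(((hE G g).1 _ (nice_Psi hE hG hS h hg o)).2 n x v).1, Psi_eq,
    (((hE G g).2 _ _ _ (P.r1 : ℂ)⁻¹ (P.rho : ℂ)⁻¹ n1.1 n2.1 n3).2 n x v).2.1]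
  have e1 : ∀ (r : ℕ) (z : ℂ), ((r : ℂ)⁻¹ * z).re = (r : ℝ)⁻¹ * z.re := fun r z => by
    rw [show ((r : ℂ))⁻¹ = (((r : ℝ)⁻¹ : ℝ) : ℂ) by simp, re_ofReal_mul]
  rw [add_re, add_re, e1, e1, (hHN G L P g h hg o ho n x v hv).1]
  obtain ⟨c1, c2, b1, b2⟩ := hG2 G L P g h n x v hv
  have a1 := (n1.2 n x v hv).1
  have a2 := (n2.2 n x v hv).1
  have c3 : Continuous fun σ => ∑ z ∈ FF L P g x, ‖ss L P o z (bs g x σ v)‖ ^ 2 :=
    continuous_finsetSum _ fun z _ =>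
      ((((hS G L P g h hg).2.1 o z n x).continuous.comp (continuous_id.prodMk continuous_const)).norm.pow 2 :)
  have hint : (∫ _ in (0 : ℝ)..1, (1 / 8 : ℝ)) ≤ ∫ σ in (0 : ℝ)..1, (rr L P (bs g x σ v) / (2 * P.r1) +
      ro L P (bs g x σ v) / (2 * P.rho) + ∑ z ∈ FF L P g x, ‖ss L P o z (bs g x σ v)‖ ^ 2) :=
    intervalIntegral.integral_mono_on zero_le_one (continuous_const.intervalIntegrable _ _)
      ((((c1.div_const _).add (c2.div_const _)).add c3).intervalIntegrable _ _)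
      fun σ hσ => (hHG G L P g h hg o ho n x v hv σ hσ).2.1
  rw [intervalIntegral.integral_add (((c1.div_const _).fun_add (c2.div_const _)).intervalIntegrable _ _)
      (c3.intervalIntegrable _ _),
    intervalIntegral.integral_add ((c1.div_const _).intervalIntegrable _ _)
      ((c2.div_const _).intervalIntegrable _ _), intervalIntegral.integral_const] at hint
  simp only [intervalIntegral.integral_div, sub_zero, smul_eq_mul, one_mul] at hint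
  have hR : (0 : ℝ) < P.R' := by exact_mod_cast Nat.succ_pos _
  have hm : (0 : ℝ) < P.m := by exact_mod_cast h.m_pos
  have hn' : ((n : ℝ) + 1) ≤ P.m := by exact_mod_cast hn
  have herr : 4 * (P.R' : ℝ) * (n + 1) * P.tau0 ≤ 1 / 32 := by
    unfold Par.tau0
    rw [mul_one_div, div_le_iff₀ (by positivity)]
    nlinarith
  have herr0 : 0 ≤ 4 * (P.R' : ℝ) * (n + 1) * P.tau0 := by have := h.tau0_pos; positivity
  set E := 4 * (P.R' : ℝ) * (n + 1) * P.tau0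
  have f : ∀ (r D A B : ℝ), 1 ≤ r → A - E ≤ D → B ≤ 2 * A → B / (2 * r) - 1 / 32 ≤ r⁻¹ * D := by
    intro r D A B hr hD hB
    have hr0 : 0 < r := by linarith
    have i1 : r⁻¹ ≤ 1 := inv_le_one_of_one_le₀ hr
    have i0 : 0 < r⁻¹ := inv_pos.2 hr0
    have : B / (2 * r) = r⁻¹ * (B / 2) := by field_simp
    rw [this]
    nlinarith [mul_le_mul_of_nonneg_left (show B / 2 - E ≤ D by linarith) i0.le,
      mul_le_mul_of_nonneg_right i1 herr0]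
  linarith [f _ _ _ _ hr1' a1 b1, f _ _ _ _ hrho' a2 b2]

theorem norm_inv_mul_le {r : ℕ} (hr : 1 ≤ r) (z : ℂ) : ‖(r : ℂ)⁻¹ * z‖ ≤ ‖z‖ := by
  rw [norm_mul, norm_inv, Complex.norm_natCast]
  exact mul_le_of_le_one_left (norm_nonneg _) (inv_le_one_of_one_le₀ (by exact_mod_cast hr))

theorem alp_le (hE : StE) (hG : StG) (hS : StHS) (hHN : StHN) (h : Valid L P)
    (hg : Hyp L P g) {o : Omg P g} (ho : FGood L P o.1) {n : ℕ} (x : Fin (n + 1) → G)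
    {v : Fin (n + 1) → ℝ} (hv : Ord v) (l : Fin (n + 1)) :
    ‖alp g (Psi L P o) n x v l‖ ≤ K0 P * lam L P.R' g x l := by
  have n1 := h.stG1 (g := g) hG
  have n2 := h.stG2 (g := g) hG
  have n3 := (hS G L P g h hg).1 o
  rw [Psi_eq, (((hE G g).2 _ _ _ (P.r1 : ℂ)⁻¹ (P.rho : ℂ)⁻¹ n1.1 n2.1 n3).2 n x v).1 l]
  have a1 := (norm_inv_mul_le h.r1_pos _).trans ((n1.2 n x v hv).2.1 l)
  have a2 := (norm_inv_mul_le h.rho_pos _).trans ((n2.2 n x v hv).2.1 l)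
  have a3 := (hHN G L P g h hg o ho n x v hv).2.1 l
  refine (norm_add₃_le).trans ?_
  unfold K0
  linarith

theorem Mx_le (hE : StE) (hG : StG) (hS : StHS) (hHN : StHN) (h : Valid L P)
    (hg : Hyp L P g) {o : Omg P g} (ho : FGood L P o.1) {n : ℕ} (x : Fin (n + 1) → G)
    {v : Fin (n + 1) → ℝ} (hv : Ord v) (i l : Fin (n + 1)) :
    ‖Mx g (Psi L P o) x v i l‖ ≤ 16 * P.R' + (P.gmax + 1) * (4 * P.Gam * P.HH * P.R') ^ 2 := by
  have n1 := h.stG1 (g := g) hG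
  have n2 := h.stG2 (g := g) hG
  have n3 := (hS G L P g h hg).1 o
  rw [Psi_eq, (((hE G g).2 _ _ _ (P.r1 : ℂ)⁻¹ (P.rho : ℂ)⁻¹ n1.1 n2.1 n3).2 n x v).2.2 i l]
  have a1 := (norm_inv_mul_le h.r1_pos _).trans ((n1.2 n x v hv).2.2 i l).1
  have a2 := (norm_inv_mul_le h.rho_pos _).trans ((n2.2 n x v hv).2.2 i l).1
  have a3 := (hHN G L P g h hg o ho n x v hv).2.2.2.2.1 i l
  have a4 := lam_le L (g := g) (show 1 ≤ P.R' from Nat.le_add_left _ _) x l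
  refine (norm_add₃_le).trans ?_
  linarith

theorem ord_uu {n : ℕ} {t : Fin (n + 1) → ℝ} (ht : t ∈ shell (n + 1)) : Ord (uu t) := by
  obtain ⟨h0, h1, -⟩ := ht
  have hL : 0 < ∑ j, t j := zero_lt_one.trans_le h1
  refine ⟨by simp [uu], fun a b hab => ?_, ?_⟩
  · refine div_le_div_of_nonneg_right (Finset.sum_le_sum_of_subset_of_nonneg (fun j hj => ?_)
      fun j _ _ => (h0 j).le) hL.le
    simp only [Finset.mem_filter, Finset.mem_univ, true_and] at hj ⊢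
    exact hj.trans_le hab
  · exact (div_le_one hL).2 (Finset.sum_le_sum_of_subset_of_nonneg (Finset.filter_subset _ _)
      fun j _ _ => (h0 j).le)

theorem sq_two_le {a b : ℂ} {lm A B : ℝ} (hl : 0 < lm) (ha : 2 * (‖a‖ / lm) ^ 2 ≤ A)
    (hb : 2 * (‖b‖ / lm) ^ 2 ≤ B) : (‖a + b‖ / lm) ^ 2 ≤ A + B := by
  have h1 : ‖a + b‖ / lm ≤ ‖a‖ / lm + ‖b‖ / lm := by
    rw [← add_div]; exact div_le_div_of_nonneg_right (norm_add_le _ _) hl.le
  have h2 : (‖a + b‖ / lm) ^ 2 ≤ (‖a‖ / lm + ‖b‖ / lm) ^ 2 := by gcongr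
  nlinarith [sq_nonneg (‖a‖ / lm - ‖b‖ / lm)]

theorem sq_part {r : ℕ} {T ε lm : ℝ} {m : ℂ} {p : Prop} [Decidable p] (hr : (0 : ℝ) < r) (hT : 0 < T)
    (h : 128 * T ≤ ε ^ 2 * r ^ 2) (hl : 1 ≤ lm) (hm : ‖m‖ ≤ 8 * lm ∧ (¬ p → m = 0)) :
    2 * (‖(r : ℂ)⁻¹ * m‖ / lm) ^ 2 ≤ if p then ε ^ 2 / T else 0 := by
  split_ifs with hp
  · have hl0 : 0 < lm := by linarith
    have h1 : ‖(r : ℂ)⁻¹ * m‖ / lm ≤ 8 / r := by
      rw [norm_mul, norm_inv, Complex.norm_natCast, div_le_div_iff₀ hl0 hr, mul_right_comm,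
        inv_mul_cancel₀ hr.ne', one_mul]
      exact hm.1
    calc 2 * (‖(r : ℂ)⁻¹ * m‖ / lm) ^ 2 ≤ 2 * (8 / (r : ℝ)) ^ 2 := by gcongr
      _ = 128 / (r : ℝ) ^ 2 := by ring
      _ ≤ ε ^ 2 / T := by rw [div_le_div_iff₀ (by positivity) hT]; exact h
  · simp [hm.2 hp]

/-- `hI` with `MK = r1⁻¹ Mx₁ + rho⁻¹ Mx₂`, `bb i = ε √(1 + cnt₁ i / T1 + cnt₂ i / (q T1))`, `η = ε N`; then `hGap`. -/
theorem main_pt (hE : StE) (hG : StG) (hS : StHS) (hHN : StHN) (hI : StI) (hGap : StGap) (h : Valid L P)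
    (hg : Hyp L P g) {o : Omg P g} (ho : FGood L P o.1) {k : ℕ} (hm : P.m = 2 * k + 1) {ε : ℝ} (hε : 0 < ε)
    (hε1 : ε ≤ 1) (h1 : 128 * (P.T1 : ℝ) ≤ ε ^ 2 * P.r1 ^ 2) (h2 : 128 * (P.q * P.T1 : ℝ) ≤ ε ^ 2 * P.rho ^ 2)
    (h3 : P.Gam ^ 2 * P.HH ^ 2 * (32 * Th) ≤ ε ^ 2 * (P.q * P.T1))
    (x : Fin (2 * k + 1) → G) {t : Fin (2 * k + 1) → ℝ} (ht : t ∈ shell (2 * k + 1)) :
    ‖Om k (alp g (Psi L P o) (2 * k) x (uu t)) (Mx g (Psi L P o) x (uu t))‖ ≤ (∏ l, lam L P.R' g x l) *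
      ((K0 P * P.gmax ^ (2 * (P.k0 + 2)) * √((2 * k + 1 : ℕ) : ℝ) * 2 ^ k * (2 * ((2 * k + 1 : ℕ) : ℝ)) ^ k *
        (2 * ε * ((2 * k + 1 : ℕ) : ℝ)) ^ k * 10 ^ (2 * k + 1) / k !) *
        ∏ i, (1 + (√(((2 * k + 1 : ℕ) : ℝ) * t i))⁻¹)) := by
  classical
  have hv := ord_uu ht
  set v := uu t with hvdef
  have n1 := h.stG1 (g := g) hG
  have n2 := h.stG2 (g := g) hG
  have n3 := (hS G L P g h hg).1 o
  obtain ⟨-, -, hcont, hMN, -, hrow⟩ := hHN G L P g h hg o ho (2 * k) x v hv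
  have hN0 : (0 : ℝ) < ((2 * k + 1 : ℕ) : ℝ) := by positivity
  set N : ℝ := ((2 * k + 1 : ℕ) : ℝ) with hN
  have hT1 : (1 : ℝ) ≤ P.T1 := by exact_mod_cast h.T1_pos
  have hq : (1 : ℝ) ≤ P.q := by exact_mod_cast h.q_pos
  have hr1 : (0 : ℝ) < P.r1 := by exact_mod_cast h.r1_pos
  have hrho : (0 : ℝ) < P.rho := by exact_mod_cast h.rho_pos
  have htau : P.tau * N = P.T1 := by
    unfold Par.tau; rw [hm]; exact div_mul_cancel₀ _ hN0.ne'
  have hTh : 0 ≤ Th := zero_le_one.trans one_le_Th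
  have hGam : 0 ≤ P.Gam := by have := h.gam_ge; unfold Par.Gam; positivity
  have hHH : 0 ≤ P.HH := by unfold Par.HH; positivity
  have hgm : 0 ≤ P.gmax := zero_le_one.trans (one_le_gmax P)
  have hK0 : 0 ≤ K0 P := by unfold K0; positivity
  have hη : P.Gam * P.HH * √(((2 * k : ℕ) + 1) * (32 * Th / (P.q * P.tau))) ≤ ε * N := by
    have e1 : ((2 * k : ℕ) : ℝ) + 1 = N := by rw [hN]; push_cast; ring
    have e2 : P.tau = P.T1 / N := by rw [← htau]; field_simp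
    rw [e1, e2]
    refine (abs_le_of_sq_le_sq' ?_ (by positivity)).2
    rw [mul_pow, Real.sq_sqrt (by positivity), mul_pow, mul_pow]
    have e3 : N * (32 * Th / (P.q * (P.T1 / N))) = 32 * Th * (N ^ 2 / (P.q * P.T1)) := by field_simp
    rw [e3]
    calc P.Gam ^ 2 * P.HH ^ 2 * (32 * Th * (N ^ 2 / (P.q * P.T1)))
        = P.Gam ^ 2 * P.HH ^ 2 * (32 * Th) * (N ^ 2 / (P.q * P.T1)) := by ring
      _ ≤ ε ^ 2 * (P.q * P.T1) * (N ^ 2 / (P.q * P.T1)) := by gcongr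
      _ = ε ^ 2 * N ^ 2 := by field_simp
  set xx : Fin (2 * k + 1) → ℝ := fun i =>
    1 + cnt (2 * P.tau) v i / (P.T1 : ℝ) + cnt (P.q * P.tau) v i / (P.q * P.T1 : ℝ) with hxx
  have hxx1 : ∀ i, 1 ≤ xx i := fun i => by
    have : (0 : ℝ) ≤ cnt (2 * P.tau) v i / (P.T1 : ℝ) := by positivity
    have : (0 : ℝ) ≤ cnt (P.q * P.tau) v i / (P.q * P.T1 : ℝ) := by positivity
    simp only [hxx]; linarith
  have key := hI (2 * k + 1) k (Lab g × Fin 2) (Ch P g) (FF L P g x) (lam L P.R' g x) (one_le_lam L P.R' x)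
    (alp g (Psi L P o) (2 * k) x v) (K0 P) hK0 (alp_le hE hG hS hHN h hg ho x hv)
    (Matrix.of fun i l => (P.r1 : ℂ)⁻¹ * Mx g (PsiK L P.R' P.kz P.p1) x v i l +
      (P.rho : ℂ)⁻¹ * Mx g (PsiK L P.R' P.kz P.kk) x v i l)
    (fun i => ε * √(xx i)) ε hε (fun i => by positivity)
    (fun i => by
      have hb : ∀ l, (‖(P.r1 : ℂ)⁻¹ * Mx g (PsiK L P.R' P.kz P.p1) x v i l +
          (P.rho : ℂ)⁻¹ * Mx g (PsiK L P.R' P.kz P.kk) x v i l‖ / lam L P.R' g x l) ^ 2 ≤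
          (if near (2 * P.tau) v i l then ε ^ 2 / P.T1 else 0) +
          (if near (P.q * P.tau) v i l then ε ^ 2 / (P.q * P.T1) else 0) := fun l =>
        sq_two_le (zero_lt_one.trans_le (one_le_lam L P.R' x l))
          (sq_part hr1 (by positivity) h1 (one_le_lam L P.R' x l) ((n1.2 _ x v hv).2.2 i l))
          (sq_part hrho (by positivity) h2 (one_le_lam L P.R' x l) ((n2.2 _ x v hv).2.2 i l))
      refine (Finset.sum_le_sum fun l _ => hb l).trans ?_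
      rw [Finset.sum_add_distrib, ← Finset.sum_filter, ← Finset.sum_filter, Finset.sum_const, Finset.sum_const,
        mul_pow, Real.sq_sqrt (zero_le_one.trans (hxx1 i)), nsmul_eq_mul, nsmul_eq_mul]
      show (cnt (2 * P.tau) v i : ℝ) * _ + (cnt (P.q * P.tau) v i : ℝ) * _ ≤ _
      simp only [hxx]
      have : 0 ≤ ε ^ 2 := by positivity
      have e1 : (cnt (2 * P.tau) v i : ℝ) * (ε ^ 2 / P.T1) = ε ^ 2 * (cnt (2 * P.tau) v i / (P.T1 : ℝ)) := by ring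
      have e2 : (cnt (P.q * P.tau) v i : ℝ) * (ε ^ 2 / (P.q * P.T1)) =
        ε ^ 2 * (cnt (P.q * P.tau) v i / (P.q * P.T1 : ℝ)) := by ring
      rw [e1, e2]; nlinarith)
    (ch L P o) (gch L P) _ h.prod_gch_le
    (fun z σ i => conj (ds L P o z x v σ i)) (fun z σ => ds L P o z x v σ)
    (fun z => continuous_pi fun i => continuous_conj.comp ((continuous_apply i).comp (hcont z))) hcont
    (ε * N) (by simpa only [Complex.norm_conj] using hrow.trans hη) (hrow.trans hη)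
    (Mx g (Psi L P o) x v) (fun i l => by
      rw [Psi_eq, (((hE G g).2 _ _ _ (P.r1 : ℂ)⁻¹ (P.rho : ℂ)⁻¹ n1.1 n2.1 n3).2 _ x v).2.2 i l, hMN i l]
      simp only [Matrix.of_apply]
      refine congrArg _ (Finset.sum_congr rfl fun z _ => Finset.sum_congr rfl fun z' _ => ?_)
      congr)
  refine key.trans (mul_le_mul_of_nonneg_left ?_
    (Finset.prod_nonneg fun l _ => zero_le_one.trans (one_le_lam L P.R' x l)))
  have hgap := (hGap (2 * k + 1) (Nat.le_add_left _ _)).1 (2 * P.tau) (P.q * P.tau) P.T1 (P.q * P.T1)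
    (by have := h.tau_pos; positivity) (by have := h.tau_pos; positivity) hT1 (by nlinarith)
    (by rw [mul_assoc, htau]; linarith) (by rw [mul_assoc, htau]; nlinarith) t ht
  have hprod : ∏ i, max 1 (ε * √(xx i) / ε) = ∏ i, √(xx i) := Finset.prod_congr rfl fun i _ => by
    rw [mul_div_cancel_left₀ _ hε.ne']
    exact max_eq_right (Real.one_le_sqrt.2 (hxx1 i))
  rw [hprod]
  have hN1 : N + ε * N ≤ 2 * N := by nlinarith
  have hN2 : ε * N + ε * N = 2 * ε * N := by ring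
  rw [hN2]
  calc K0 P * √N * P.gmax ^ (2 * (P.k0 + 2)) * 2 ^ k * (N + ε * N) ^ k * (2 * ε * N) ^ k * (∏ i, √(xx i)) / k !
      ≤ K0 P * √N * P.gmax ^ (2 * (P.k0 + 2)) * 2 ^ k * (2 * N) ^ k * (2 * ε * N) ^ k *
        (10 ^ (2 * k + 1) * ∏ i, (1 + (√(N * t i))⁻¹)) / k ! := by gcongr
    _ = _ := by ring

end Crest.Agent.R192
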