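import Crest.Agent.R192.Iface

/-!
R192/Glue/Par: choice of the parameters, and the final limit.
-/

set_option autoImplicit false

open MeasureTheory Complex Filter Topology
open scoped Nat

noncomputable section

namespace Crest.Agent.R192

/-- the same parameters with another `m` -/
def Par.setm (P : Par) (m : ℕ) : Par := { P with m := m }

theorem par_exists_nat (A : ℝ) {e : ℝ} (he : 0 < e) : ∃ K : ℕ, 1 ≤ K ∧ A ≤ e * K := by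
  refine ⟨⌈A / e⌉₊ + 1, Nat.le_add_left 1 _, ?_⟩
  have h := Nat.le_ceil (A / e)
  rw [div_le_iff₀ he] at h
  push_cast
  nlinarith

theorem par_prob (b Λ q ρ j d GG : ℕ) (hd : d = (b + 1) * Λ + q + 96 * b * ρ + j + 4)
    (hGG : GG = b ^ (6 * ρ)) (hGG1 : 1 ≤ GG) :
    2 * (2 * b : ℝ) ^ Λ * 2 ^ q * (j + 1) / 2 ^ d + (GG : ℝ) ^ 2 / ((8 * GG ^ 18 + 1 : ℕ) : ℝ) ≤
      1 / (4 * (GG : ℝ) ^ 16) := by
  have hG : (0 : ℝ) < GG := by exact_mod_cast hGG1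
  have h1 : (2 * b) ^ Λ ≤ 2 ^ ((b + 1) * Λ) := by
    rw [pow_mul]
    refine Nat.pow_le_pow_left ?_ _
    rw [pow_succ]
    have := (Nat.lt_two_pow_self (n := b)).le
    omega
  have h2 : GG ^ 16 ≤ 2 ^ (96 * b * ρ) := by
    rw [hGG, ← pow_mul, show 96 * b * ρ = b * (6 * ρ * 16) by ring, pow_mul 2]
    exact Nat.pow_le_pow_left (Nat.lt_two_pow_self (n := b)).le _
  have h3 : j + 1 ≤ 2 ^ j := Nat.lt_two_pow_self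
  have h4 : 2 * (2 * b) ^ Λ * 2 ^ q * (j + 1) * (8 * GG ^ 16) ≤ 2 ^ d := by
    calc _ ≤ 2 * 2 ^ ((b + 1) * Λ) * 2 ^ q * 2 ^ j * (8 * 2 ^ (96 * b * ρ)) := by gcongr
      _ = _ := by rw [hd]; simp only [pow_add]; ring
  have h5 : 2 * (2 * b : ℝ) ^ Λ * 2 ^ q * (j + 1) / 2 ^ d ≤ 1 / (8 * (GG : ℝ) ^ 16) := by
    rw [div_le_div_iff₀ (by positivity) (by positivity), one_mul]
    exact_mod_cast h4
  have h6 : (GG : ℝ) ^ 2 / ((8 * GG ^ 18 + 1 : ℕ) : ℝ) ≤ 1 / (8 * (GG : ℝ) ^ 16) := by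
    rw [div_le_div_iff₀ (by positivity) (by positivity)]
    push_cast
    nlinarith
  have h7 : 1 / (4 * (GG : ℝ) ^ 16) = 1 / (8 * (GG : ℝ) ^ 16) + 1 / (8 * (GG : ℝ) ^ 16) := by
    field_simp; ring
  linarith

/-- Recipe (all naturals; `b = L.b`).  `gam = 12 b + 1`; `c₂ = 200 (b+1) + 5 gam + 6`; `K = ⌈Gam² 11000² 32 Th c₂ / ε²⌉₊ + 1`; `r1 = ⌈128 K / ε²⌉₊ + 1`; `T1 = K r1`;
`K₂ = 8192 gam² r1`; `q = K₂ rho`; `rho` large: `128 K₂ T1 ≤ ε² rho` and `11000 c₂ K₂ r1 rho ≤ exp (2 rho)` (use `exp (2ρ) ≥ (2ρ)²/2`);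
`G0 = b^(6 rho) - 1`; `d = (b+1) Lam + q + 96 b rho + j1 + 4` (so `d ≤ c₂ q r1` as `rho ≤ q`, `j1 ≤ 5 gam rho + 1`; `2b ≤ 2^(b+1)`, `GG^16 ≤ 2^(96 b rho)`, `j1+1 ≤ 2^j1`,
`GG^4 ≤ exp (24 b rho)`); `k0 = 8 GG^18`; `M = 1024 b^(2Rs) Rs + 1`, `q0` from `hM`. -/
theorem exists_par (hM : StM) {G : Type} [Group G] (L : Len G) {ε : ℝ} (hε : 0 < ε) :
    ∃ P : Par, (∀ m, 2 * (P.q + 1) * P.T1 ≤ m → Valid L (P.setm m)) ∧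
      128 * (P.T1 : ℝ) ≤ ε ^ 2 * P.r1 ^ 2 ∧ 128 * (P.q * P.T1 : ℝ) ≤ ε ^ 2 * P.rho ^ 2 ∧
      P.Gam ^ 2 * P.HH ^ 2 * (32 * Th) ≤ ε ^ 2 * (P.q * P.T1) := by

  have hTh : 0 ≤ Th := zero_le_one.trans one_le_Th
  have hε2 : 0 < ε ^ 2 := by positivity
  obtain ⟨b, hb⟩ : ∃ b, b = L.b := ⟨_, rfl⟩
  have hb2 : 2 ≤ b := hb ▸ L.two_le
  obtain ⟨γ, hγ⟩ : ∃ γ : ℕ, γ = 12 * b + 1 := ⟨_, rfl⟩
  obtain ⟨c, hc⟩ : ∃ c : ℕ, c = 200 * (b + 1) + 5 * γ + 6 := ⟨_, rfl⟩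
  obtain ⟨K, hK1, hK⟩ := par_exists_nat ((13 * Th * γ) ^ 2 * 11000 ^ 2 * (32 * Th) * c) hε2
  obtain ⟨r, hr1, hr⟩ := par_exists_nat (128 * K) hε2
  obtain ⟨K₂, hK₂⟩ : ∃ K₂ : ℕ, K₂ = 8192 * γ ^ 2 * r := ⟨_, rfl⟩
  have hγ1 : 1 ≤ γ := by omega
  have hK₂1 : 1 ≤ K₂ := by rw [hK₂]; exact Nat.mul_pos (by positivity) hr1
  obtain ⟨ρ₀, hρ₀1, hρ₀⟩ := par_exists_nat (128 * K₂ * (K * r)) hε2
  obtain ⟨ρ, hρ⟩ : ∃ ρ : ℕ, ρ = ρ₀ + 11000 * c * K₂ * r := ⟨_, rfl⟩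
  have hρ1 : 1 ≤ ρ := by omega
  obtain ⟨q, hq⟩ : ∃ q : ℕ, q = K₂ * ρ := ⟨_, rfl⟩
  have hρq : ρ ≤ q := by rw [hq]; exact Nat.le_mul_of_pos_left _ hK₂1
  obtain ⟨Λ, hΛ⟩ : ∃ Λ : ℕ, Λ = 16 * (4 * q * r + 2 * ρ) := ⟨_, rfl⟩
  obtain ⟨j, hj⟩ : ∃ j : ℕ, j = 5 * γ * ρ := ⟨_, rfl⟩
  obtain ⟨d, hd⟩ : ∃ d : ℕ, d = (b + 1) * Λ + q + 96 * b * ρ + j + 4 := ⟨_, rfl⟩
  obtain ⟨GG, hGG⟩ : ∃ GG : ℕ, GG = b ^ (6 * ρ) := ⟨_, rfl⟩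
  have hGG1 : 1 ≤ GG := by rw [hGG]; exact Nat.one_le_pow _ _ (by omega)
  have hdc : d ≤ c * (q * r) := by
    obtain ⟨u, hu⟩ : ∃ u, u = q * r := ⟨_, rfl⟩
    have h1 : q ≤ u := by rw [hu]; exact Nat.le_mul_of_pos_right _ hr1
    have h2 : Λ ≤ 96 * u := by rw [hΛ, mul_assoc 4, ← hu]; omega
    have h3 : ρ ≤ u := hρq.trans h1
    have h4 : (b + 1) * Λ ≤ (b + 1) * (96 * u) := Nat.mul_le_mul_left _ h2
    have h5 : 96 * b * ρ ≤ 96 * b * u := Nat.mul_le_mul_left _ h3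
    have h6 : j ≤ 5 * γ * u := hj ▸ Nat.mul_le_mul_left _ h3
    rw [← hu, hd, hc]
    nlinarith
  obtain ⟨hfar, hnear⟩ := hM G L (44 * ρ)
  obtain ⟨q0, hq0, hnear⟩ := hnear (1024 * L.b ^ (2 * (44 * ρ)) * (44 * ρ) + 1)
  have hdR : (d : ℝ) ≤ c * (q * r) := by exact_mod_cast hdc
  have hρR : (ρ₀ : ℝ) ≤ ρ := by exact_mod_cast (by omega : ρ₀ ≤ ρ)
  refine ⟨⟨q, K * r, r, ρ, 0, GG - 1, 8 * GG ^ 18, q0, 1024 * L.b ^ (2 * (44 * ρ)) * (44 * ρ) + 1, d, γ⟩,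
    fun m hm => ?_, ?_, ?_, ?_⟩
  · have eG : GG - 1 + 1 = GG := by omega
    refine ⟨hρ1.trans hρq, Nat.mul_pos hK1 hr1, hr1, hρ1, by show 1 ≤ d; omega,
      by show (1 : ℝ) ≤ γ; exact_mod_cast hγ1, hm, by show GG - 1 + 1 = L.b ^ (6 * ρ); rw [eG, hGG, hb],
      ?_, ?_, ?_, fun y hy => hfar y hy, hq0, hnear⟩
    · show 8192 * (γ : ℝ) ^ 2 * ρ * r ≤ q
      rw [hq, hK₂]; push_cast; exact le_of_eq (by ring)
    · show 11000 * (d : ℝ) * ((GG - 1 + 1 : ℕ) : ℝ) ^ 4 ≤ Real.exp (2 * γ * ρ)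
      rw [eG]
      have h1 : (GG : ℝ) ^ 4 ≤ Real.exp (24 * b * ρ) := by
        have h2 : (b : ℝ) ≤ Real.exp b := by linarith [Real.add_one_le_exp (b : ℝ)]
        calc (GG : ℝ) ^ 4 = (b : ℝ) ^ (24 * ρ) := by rw [hGG]; push_cast; rw [← pow_mul]; congr 1; ring
          _ ≤ Real.exp b ^ (24 * ρ) := pow_le_pow_left₀ (Nat.cast_nonneg _) h2 _
          _ = _ := by rw [← Real.exp_nat_mul]; congr 1; push_cast; ring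
      have h2 : 11000 * (d : ℝ) ≤ Real.exp (2 * ρ) := by
        have h3 := Real.quadratic_le_exp_of_nonneg (x := 2 * (ρ : ℝ)) (by positivity)
        have h4 : ((11000 * c * K₂ * r : ℕ) : ℝ) ≤ ρ := by exact_mod_cast (by omega : 11000 * c * K₂ * r ≤ ρ)
        have h5 : (0 : ℝ) ≤ ρ := Nat.cast_nonneg _
        have h6 : 11000 * (c * (q * r) : ℝ) = ((11000 * c * K₂ * r : ℕ) : ℝ) * ρ := by
          rw [hq]; push_cast; ring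
        nlinarith [mul_le_mul_of_nonneg_right h4 h5]
      calc _ ≤ Real.exp (2 * ρ) * Real.exp (24 * b * ρ) :=
            mul_le_mul h2 h1 (by positivity) (Real.exp_pos _).le
        _ = _ := by rw [← Real.exp_add, hγ]; congr 1; push_cast; ring
    · show 2 * (2 * L.b : ℝ) ^ (16 * (4 * q * r + 2 * ρ)) * 2 ^ q * ((⌈5 * (γ : ℝ) * ρ⌉₊ : ℕ) + 1) / 2 ^ d +
        ((GG - 1 + 1 : ℕ) : ℝ) ^ 2 / ((8 * GG ^ 18 + 1 : ℕ) : ℝ) ≤ 1 / (4 * ((GG - 1 + 1 : ℕ) : ℝ) ^ 16)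
      have ej : ⌈5 * (γ : ℝ) * ρ⌉₊ = j := by
        rw [hj, ← Nat.ceil_natCast (R := ℝ) (5 * γ * ρ)]; congr 1; push_cast; ring
      rw [eG, ej, ← hΛ, ← hb]
      exact par_prob b Λ q ρ j d GG hd hGG hGG1
  · show 128 * ((K * r : ℕ) : ℝ) ≤ ε ^ 2 * (r : ℝ) ^ 2
    push_cast
    nlinarith [mul_le_mul_of_nonneg_right hr (Nat.cast_nonneg (α := ℝ) r)]
  · show 128 * ((q : ℝ) * ((K * r : ℕ) : ℝ)) ≤ ε ^ 2 * (ρ : ℝ) ^ 2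
    have h1 := hρ₀.trans (mul_le_mul_of_nonneg_left hρR hε2.le)
    rw [hq]
    push_cast
    nlinarith [mul_le_mul_of_nonneg_right h1 (Nat.cast_nonneg (α := ℝ) ρ)]
  · show (13 * Th * γ) ^ 2 * (11000 * √(d : ℝ)) ^ 2 * (32 * Th) ≤ ε ^ 2 * ((q : ℝ) * ((K * r : ℕ) : ℝ))
    rw [mul_pow 11000, Real.sq_sqrt (Nat.cast_nonneg _)]
    push_cast
    calc _ ≤ (13 * Th * γ) ^ 2 * (11000 ^ 2 * (c * (q * r))) * (32 * Th) := by gcongr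
      _ = ((13 * Th * γ) ^ 2 * 11000 ^ 2 * (32 * Th) * c) * (q * r) := by ring
      _ ≤ (ε ^ 2 * K) * (q * r) := mul_le_mul_of_nonneg_right hK (by positivity)
      _ = _ := by ring

/-- the final bound tends to zero: `(2k)!/(k! k!) ≤ 4^k`, `N^k N^k √N / N^N ≤ 1` for `N = 2k+1`. -/
theorem final_le (K C ε : ℝ) (hK : 0 ≤ K) (hC : 0 ≤ C) (hε : 0 < ε) (h : 1024 * ε * (300 * C) ^ 2 ≤ 1) (k : ℕ) :
    ((2 * k)! / k ! : ℝ) * 16 ^ (k + 1) * Th *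
      ((K * √((2 * k + 1 : ℕ) : ℝ) * 2 ^ k * (2 * ((2 * k + 1 : ℕ) : ℝ)) ^ k *
        (2 * ε * ((2 * k + 1 : ℕ) : ℝ)) ^ k * 10 ^ (2 * k + 1) / k !) * (30 / ((2 * k + 1 : ℕ) : ℝ)) ^ (2 * k + 1)) *
      C ^ (2 * k + 1) ≤ 16 * Th * K * (300 * C) * (1 / 2) ^ k := by

  have hTh : 0 ≤ Th := zero_le_one.trans one_le_Th
  have hk : (0 : ℝ) < k ! := by exact_mod_cast k.factorial_pos
  have h1 : ((2 * k)! : ℝ) ≤ 4 ^ k * k ! * k ! := by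
    have h2 := Nat.choose_mul_factorial_mul_factorial (show k ≤ 2 * k by omega)
    rw [show 2 * k - k = k by omega] at h2
    have h3 : (2 * k).choose k ≤ 4 ^ k := by
      rw [show 4 ^ k = 2 ^ (2 * k) by rw [pow_mul]; norm_num]
      exact Nat.choose_le_two_pow _ _
    rw [← h2]
    exact_mod_cast Nat.mul_le_mul_right _ (Nat.mul_le_mul_right _ h3)
  obtain ⟨N, hN⟩ : ∃ N : ℝ, N = ((2 * k + 1 : ℕ) : ℝ) := ⟨_, rfl⟩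
  rw [← hN]
  have hN1 : 1 ≤ N := by rw [hN]; exact_mod_cast Nat.le_add_left 1 _
  have hN0 : 0 < N := zero_lt_one.trans_le hN1
  have hs : √N / N ≤ 1 := by
    rw [div_le_one hN0]
    exact Real.sqrt_le_iff.2 ⟨hN0.le, by nlinarith⟩
  have h4 : ((2 * k)! : ℝ) / (k ! * k !) ≤ 4 ^ k := by
    rw [div_le_iff₀ (by positivity)]; linarith
  have h5 : (512 * ε * (300 * C) ^ 2) ^ k ≤ (1 / 2) ^ k :=
    pow_le_pow_left₀ (by positivity) (by linarith) k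
  have e : ((2 * k)! / k ! : ℝ) * 16 ^ (k + 1) * Th *
      ((K * √N * 2 ^ k * (2 * N) ^ k * (2 * ε * N) ^ k * 10 ^ (2 * k + 1) / k !) *
        (30 / N) ^ (2 * k + 1)) * C ^ (2 * k + 1) =
      (16 * Th * K * (300 * C)) * ((((2 * k)! : ℝ) / (k ! * k !)) * (128 * ε * (300 * C) ^ 2) ^ k *
        (√N / N)) := by
    have e1 : (128 * ε * (300 * C) ^ 2) ^ k =
        16 ^ k * 2 ^ k * 2 ^ k * 2 ^ k * ε ^ k * (10 ^ k) ^ 2 * (30 ^ k) ^ 2 * (C ^ k) ^ 2 := by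
      simp only [← pow_mul, mul_comm k 2]
      simp only [pow_mul, ← mul_pow]
      congr 1; ring
    rw [e1]
    simp only [pow_succ, mul_comm 2 k, pow_mul, mul_pow, div_pow, pow_zero]
    field_simp
    ring
  rw [e]
  refine mul_le_mul_of_nonneg_left ?_ (by positivity)
  calc _ ≤ 4 ^ k * (128 * ε * (300 * C) ^ 2) ^ k * 1 := by gcongr
    _ = (512 * ε * (300 * C) ^ 2) ^ k := by rw [mul_one, ← mul_pow]; congr 1; ring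
    _ ≤ _ := h5

end Crest.Agent.R192
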