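import Crest.Agent.R192.Glue.Law
import Crest.Agent.R192.Glue.Par
import Crest.Agent.R192.Glue.Est

/-!
R192/Glue/Core: the core theorem from the interface statements.
-/

set_option autoImplicit false

open MeasureTheory Complex Filter Topology Crest.AlgebraR.L1
open scoped Nat ComplexConjugate

noncomputable section

namespace Crest.Agent.R192

theorem mn_nonneg {q : ℕ} (A : Matrix (Fin q) (Fin q) ℂ) : 0 ≤ mn A :=
  Finset.sum_nonneg fun _ _ => Finset.sum_nonneg fun _ _ => norm_nonneg _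

theorem alp_congr {G : Type} [Group G] {g : G} {Ψ Ψ' : Pth G → Pth G → ℂ} {n : ℕ} {x x' : Fin (n + 1) → G}
    (h : ∀ σ v σ' v', Phi g Ψ x σ v σ' v' = Phi g Ψ' x' σ v σ' v') : alp g Ψ n x = alp g Ψ' n x' := by
  funext v l
  simp only [alp, h]

theorem core_bound (hCW : StCW) (hE : StE) (hG : StG) (hG2 : StG2) (hS : StHS) (hHG : StHG) (hHN : StHN)
    (hK : StK) (hL : StL) (hI : StI) (hGap : StGap) {G : Type} [Group G] (L : Len G) {q : ℕ}
    (e : Fin q → Fin q → G → ℂ) (he : IsL1IdempotentMatrix e)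
    (hs : Summable (fun w => mn (em e w) * (1 + (L.l w : ℝ)))) {P : Par} (h : Valid L P) {g : G}
    (hg : Hyp L P g) {k : ℕ} (hm : P.m = 2 * k + 1) {ε : ℝ} (hε : 0 < ε)
    (hε1 : ε ≤ 1) (h1 : 128 * (P.T1 : ℝ) ≤ ε ^ 2 * P.r1 ^ 2) (h2 : 128 * (P.q * P.T1 : ℝ) ≤ ε ^ 2 * P.rho ^ 2)
    (h3 : P.Gam ^ 2 * P.HH ^ 2 * (32 * Th) ≤ ε ^ 2 * (P.q * P.T1)) {C : ℝ}
    (hC : ∑' w, mn (em e w) * (1 + (L.l w : ℝ)) ≤ C) (hεC : 1024 * ε * (300 * C) ^ 2 ≤ 1) :
    ‖classTrace e (ConjClasses.mk g).carrier‖ ≤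
      16 * Th * (K0 P * P.gmax ^ (2 * (P.k0 + 2))) * (300 * C) * (1 / 2) ^ k := by
  classical
  obtain ⟨μ, hμ, hinv, hgood⟩ := exists_law hK hL L P g h
  set W : G → ℝ := fun w => max 1 (min (L.l w) P.R' : ℕ) with hW
  have hW0 : ∀ w, 0 ≤ W w := fun w => zero_le_one.trans (le_max_left _ _)
  have hWle : ∀ w, W w ≤ 1 + (L.l w : ℝ) := fun w => by
    refine max_le (le_add_of_nonneg_right (Nat.cast_nonneg _)) ?_
    have : ((min (L.l w) P.R' : ℕ) : ℝ) ≤ L.l w := by exact_mod_cast min_le_left _ _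
    linarith
  have hle : ∀ w, mn (em e w) * W w ≤ mn (em e w) * (1 + (L.l w : ℝ)) := fun w =>
    mul_le_mul_of_nonneg_left (hWle w) (mn_nonneg _)
  have hsW : Summable fun w => mn (em e w) * W w :=
    Summable.of_nonneg_of_le (fun w => mul_nonneg (mn_nonneg _) (hW0 w)) hle hs
  have hCW0 : 0 ≤ ∑' w, mn (em e w) * W w := tsum_nonneg fun w => mul_nonneg (mn_nonneg _) (hW0 w)
  have hCWle : ∑' w, mn (em e w) * W w ≤ C := (hsW.tsum_le_tsum hle hs).trans hC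
  have hC0 : 0 ≤ C := hCW0.trans hCWle
  have hR1 : 1 ≤ P.R' := Nat.le_add_left _ _
  have hTh : 0 ≤ Th := zero_le_one.trans one_le_Th
  have hK0 : 0 ≤ K0 P := by
    have h1 : 0 ≤ P.gmax := zero_le_one.trans (one_le_gmax P)
    have h2 : 0 ≤ P.Gam := by
      have := h.gam_ge
      unfold Par.Gam; positivity
    unfold K0; positivity
  set K : ℝ := K0 P * P.gmax ^ (2 * (P.k0 + 2)) with hKdef
  have hKn : 0 ≤ K := mul_nonneg hK0 (pow_nonneg (zero_le_one.trans (one_le_gmax P)) _)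
  set A : ℝ := K * √((2 * k + 1 : ℕ) : ℝ) * 2 ^ k * (2 * ((2 * k + 1 : ℕ) : ℝ)) ^ k *
        (2 * ε * ((2 * k + 1 : ℕ) : ℝ)) ^ k * 10 ^ (2 * k + 1) / k ! with hA
  have hA0 : 0 ≤ A := by rw [hA]; positivity
  obtain ⟨-, hint, hval⟩ := hGap (2 * k + 1) (Nat.le_add_left _ _)
  have hnice : ∀ o : Omg P g, Nice g (Psi L P o) := nice_Psi hE hG hS h hg
  obtain ⟨-, -, -, -, hequi, hloc⟩ := hS G L P g h hg
  have key := hCW G g q e he W hW0 hsW (Omg P g) μ k (fun o => alp g (Psi L P o))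
    (fun o => ((hE G g).1 _ (hnice o)).1)
    (fun n x Ξ => integrable_local μ (fun o => alp g (Psi L P o) n x) ((FF L P g x).image Prod.fst)
      (fun o o' hoo => alp_congr (hloc n x o o' fun z hz => hoo _ (Finset.mem_image_of_mem _ hz))) Ξ)
    (fun c hc => ⟨actO P c hc, hinv c hc, fun o n x => alp_congr fun σ v σ' v' => by
      unfold Phi
      rw [bs_mul g c hc, bs_mul g c hc, hequi c hc o _ _ (homog_bs _ _ _ _) (homog_bs _ _ _ _)]⟩)
    (hgood.mono fun o ho n hn x v hv => D_lower hE hG hG2 hS hHG hHN h hg ho (by omega) x hv)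
    ⟨max (K0 P * P.R') (2 * (16 * P.R' + (P.gmax + 1) * (4 * P.Gam * P.HH * P.R') ^ 2)),
      hgood.mono fun o ho n _ x v hv => ⟨fun l => by
        refine (alp_le hE hG hS hHN h hg ho x hv l).trans (le_trans ?_ (le_max_left _ _))
        exact mul_le_mul_of_nonneg_left (lam_le L hR1 x l) hK0, fun i l => by
        rw [← ((((hE G g).1 _ (hnice o)).2 n x v).2 i l)]
        refine (norm_sub_le _ _).trans (le_trans ?_ (le_max_right _ _))
        linarith [Mx_le hE hG hS hHN h hg ho x hv i l, Mx_le hE hG hS hHN h hg ho x hv l i]⟩⟩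
    (fun t => A * ∏ i, (1 + (√(((2 * k + 1 : ℕ) : ℝ) * t i))⁻¹)) (hint.const_mul A)
    (fun t => mul_nonneg hA0 (Finset.prod_nonneg fun i _ => by positivity))
    (hgood.mono fun o ho x t ht => ⟨Mx g (Psi L P o) x (uu t),
      (((hE G g).1 _ (hnice o)).2 (2 * k) x (uu t)).2,
      main_pt hE hG hS hHN hI hGap h hg ho hm hε hε1 h1 h2 h3 x ht⟩)
  refine key.trans (le_trans ?_ (final_le K C ε hKn hC0 hε hεC k))
  rw [integral_const_mul]
  have hI0 : 0 ≤ ∫ t in shell (2 * k + 1), ∏ i, (1 + (√(((2 * k + 1 : ℕ) : ℝ) * t i))⁻¹) :=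
    integral_nonneg fun t => Finset.prod_nonneg fun i _ => by positivity
  gcongr

theorem core (hCW : StCW) (hE : StE) (hG : StG) (hG2 : StG2) (hS : StHS) (hHG : StHG) (hHN : StHN)
    (hK : StK) (hL : StL) (hM : StM) (hI : StI) (hGap : StGap) : Core := by
  intro G _ L q e he hs
  set C : ℝ := max 1 (∑' w, mn (em e w) * (1 + (L.l w : ℝ))) with hC
  have hC1 : 1 ≤ C := le_max_left _ _
  set ε : ℝ := 1 / (1024 * (300 * C) ^ 2) with hεdef
  have hpos : 0 < 1024 * (300 * C) ^ 2 := by positivity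
  have hε : 0 < ε := by positivity
  have hεC : 1024 * ε * (300 * C) ^ 2 ≤ 1 := by
    rw [hεdef]; apply le_of_eq; field_simp
  have hε1 : ε ≤ 1 := by
    rw [hεdef, div_le_one hpos]; nlinarith
  obtain ⟨P, hP, h1, h2, h3⟩ := exists_par hM L hε
  refine ⟨P.M, fun g hg => ?_⟩
  have hb : ∀ k, (P.q + 1) * P.T1 ≤ k → ‖classTrace e (ConjClasses.mk g).carrier‖ ≤
      16 * Th * (K0 P * P.gmax ^ (2 * (P.k0 + 2))) * (300 * C) * (1 / 2) ^ k := fun k hk =>
    core_bound hCW hE hG hG2 hS hHG hHN hK hL hI hGap L e he hs (P := P.setm (2 * k + 1))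
      (hP _ (by rw [mul_assoc]; omega)) hg rfl hε hε1 h1 h2 h3 (le_max_right _ _) hεC
  have ht : Tendsto (fun k : ℕ => 16 * Th * (K0 P * P.gmax ^ (2 * (P.k0 + 2))) * (300 * C) * (1 / 2 : ℝ) ^ k)
      atTop (𝓝 0) := by
    simpa using (tendsto_pow_atTop_nhds_zero_of_lt_one (r := (1 / 2 : ℝ)) (by norm_num) (by norm_num)).const_mul
      (16 * Th * (K0 P * P.gmax ^ (2 * (P.k0 + 2))) * (300 * C))
  exact norm_le_zero_iff.1 (ge_of_tendsto ht (eventually_atTop.2 ⟨_, hb⟩))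

end Crest.Agent.R192
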