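import Crest.Agent.R192.Iface
import Crest.Agent.R192.Lab

/-!
R192/Glue/Law: the invariant law on `Omg P g`, and integrability of local functionals.
-/

set_option autoImplicit false

open MeasureTheory Complex ProbabilityTheory

noncomputable section

namespace Crest.Agent.R192

instance optDMS {α : Type} : DiscreteMeasurableSpace (Option α) := ⟨fun _ => trivial⟩

theorem law_unif {A : Type} [Fintype A] [Nonempty A] [MeasurableSpace A] [DiscreteMeasurableSpace A]
    (e : A ≃ A) : (uniformOn (Set.univ : Set A)).map e = uniformOn Set.univ := by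
  refine Measure.ext_of_singleton fun a => ?_
  rw [Measure.map_apply (measurable_of_finite e) (measurableSet_singleton a)]
  have : e ⁻¹' {a} = {e.symm a} := by
    ext b
    simp [Equiv.eq_symm_apply]
  rw [this, uniformOn_univ, uniformOn_univ]
  simp

theorem law_offsets {J A : Type} [Fintype A] [Nonempty A] [MeasurableSpace A] [DiscreteMeasurableSpace A]
    (π : J ≃ J) (e : J → A ≃ A) :
    MeasurePreserving (fun (o : J → A) j => e (π.symm j) (o (π.symm j)))
      (Measure.infinitePi fun _ => uniformOn Set.univ) (Measure.infinitePi fun _ => uniformOn Set.univ) := by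
  have h1 : MeasurePreserving (fun (o : J → A) j => e j (o j))
      (Measure.infinitePi fun _ => uniformOn Set.univ) (Measure.infinitePi fun _ => uniformOn Set.univ) := by
    refine ⟨measurable_pi_lambda _ fun j => (measurable_of_finite _).comp (measurable_pi_apply j), ?_⟩
    rw [Measure.infinitePi_map_pi (fun _ : J => (uniformOn Set.univ : Measure A)) (f := fun j => e j)
      fun j => measurable_of_finite _]
    simp only [law_unif]
  have h2 : MeasurePreserving (MeasurableEquiv.piCongrLeft (fun _ : J => A) π)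
      (Measure.infinitePi fun _ => uniformOn Set.univ) (Measure.infinitePi fun _ => uniformOn Set.univ) :=
    ⟨MeasurableEquiv.measurable _,
      Measure.infinitePi_map_piCongrLeft (fun _ : J => (uniformOn Set.univ : Measure A)) π⟩
  convert h2.comp h1 using 1
  funext o j
  obtain ⟨i, rfl⟩ := π.surjective j
  rw [Function.comp_apply, MeasurableEquiv.piCongrLeft_apply_apply, Equiv.symm_apply_apply]


/-- Recipe: `L.countable`; apply `hL` with `J = Lab g`, `S = Sg P`, `U J = UU L P g J.out`, `Δ = P.GG`,
`Bad J = {η | ¬ Good L P η J.out}` (`lab_mem_UU`, `dJ_lab_comm`, `card_UU_le`, `good_congr`, `hK`).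
`μ = Q.prod (infinitePi fun _ => uniformOn univ)`.  Invariance under `π = lsm g c hc`: `(π J).out = g^(-nu) * c * J.out` (`nu_spec`),
`lsm_zpow_mul`, `good_lsm`, `dJ_lsm`; on the offsets: `infinitePi_map_piCongrLeft` and `infinitePi_map_pi` (translations preserve the uniform
measure), `MeasurePreserving.prod`.  `FGood` at `c = g^n * (lab g c).out` from the label `lab g c` (`good_lsm` with `g^n`, `lsm_zpow`, `dJ_zpow`). -/
theorem exists_law (hK : StK) (hL : StL) {G : Type} [Group G] (L : Len G) (P : Par) (g : G) (h : Valid L P) :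
    ∃ μ : Measure (Omg P g), IsProbabilityMeasure μ ∧
      (∀ c (hc : Commute c g), MeasurePreserving (actO P c hc) μ μ) ∧ ∀ᵐ o ∂μ, FGood L P o.1 := by
  have := L.countable
  have hout : ∀ (c : G) (hc : Commute c g) (J : Lab g), ∃ (n : ℤ) (hc' : Commute (g ^ n * c) g),
      (lsm g c hc J).out = g ^ n * c * J.out ∧ lsm g (g ^ n * c) hc' = lsm g c hc := fun c hc J => by
    have hc' : Commute (g ^ (-nu c hc J) * c) g := ((Commute.refl g).zpow_left _).mul_left hc
    refine ⟨-nu c hc J, hc', ?_, lsm_zpow_mul _ c hc hc'⟩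
    rw [mul_assoc, nu_spec c hc J, ← mul_assoc, ← zpow_add, neg_add_cancel, zpow_zero, one_mul]
  obtain ⟨Q, hQ, hinv, hgood⟩ := hL (Lab g) (Sg P) (fun J => UU L P g J.out) P.GG
    (fun J => by simpa only [lab_out] using lab_mem_UU L P h J.out (g := g))
    (fun I J hI => by
      rw [mem_UU] at hI ⊢
      rwa [← lab_out J, dJ_lab_comm, lab_out])
    (fun J => card_UU_le L P h _) (fun J => {η | ¬ Good L P η J.out})
    (fun J η η' he hη => fun h' => hη ((good_congr L P he).2 h')) (fun J => hK G L P g h _)
  refine ⟨Q.prod (Measure.infinitePi fun _ => uniformOn Set.univ), inferInstance, fun c hc => ?_, ?_⟩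
  · refine MeasurePreserving.prod (hinv (lsm g c hc) (fun I J => ?_) fun J η => ?_)
      (law_offsets (lsm g c hc) fun J => Equiv.subRight ((nu c hc J : ℤ) : ZMod (P.q0 + 1)))
    · obtain ⟨n, hc', e1, e2⟩ := hout c hc J
      show lsm g c hc I ∈ UU L P g _ ↔ I ∈ UU L P g _
      rw [mem_UU, mem_UU, e1, ← e2, dJ_lsm]
    · obtain ⟨n, hc', e1, e2⟩ := hout c hc J
      show ¬ Good L P _ _ ↔ ¬ Good L P _ _
      rw [e1, ← e2, good_lsm]
  · refine Measure.quasiMeasurePreserving_fst.ae (hgood.mono fun f hf c => ?_)
    obtain ⟨n, hn⟩ : ∃ n : ℤ, c = g ^ n * (lab g c).out := ⟨_, expo_spec (lab g c) rfl⟩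
    have hc : Commute (g ^ n) g := (Commute.refl g).zpow_left _
    have hU : UU L P g c = UU L P g (lab g c).out := by
      ext J
      rw [mem_UU, mem_UU]
      conv_lhs => rw [hn, dJ_zpow]
    obtain ⟨h1, h2⟩ := hf (lab g c)
    rw [hU]
    refine ⟨fun p => ?_, h2⟩
    obtain ⟨η, hη, h3⟩ := h1 p
    refine ⟨η, ?_, h3⟩
    have h4 := (good_lsm L P (g ^ n) hc η (lab g c).out).2 (not_not.1 hη)
    rw [← hn] at h4
    have h5 : ∀ J, (lsm g (g ^ n) hc).symm J = J := fun J => by
      rw [Equiv.symm_apply_eq, lsm_zpow]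
    simpa only [h5] using h4

/-- a functional depending on finitely many finite-valued coordinates is integrable: it factors through the measurable
restriction map to the finite discrete space `(F → A) × (F → B)`. -/
theorem integrable_local {J A B X : Type} [Finite A] [Finite B] [MeasurableSpace A] [MeasurableSpace B]
    [DiscreteMeasurableSpace A] [DiscreteMeasurableSpace B] (μ : Measure ((J → A) × (J → B))) [IsFiniteMeasure μ]
    (φ : (J → A) × (J → B) → X) (F : Finset J)
    (h : ∀ o o', (∀ j ∈ F, o.1 j = o'.1 j ∧ o.2 j = o'.2 j) → φ o = φ o') (Ξ : X → ℂ) :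
    Integrable (fun o => Ξ (φ o)) μ := by
  classical
  let r : (J → A) × (J → B) → (F → A) × (F → B) := fun o => (fun j => o.1 j, fun j => o.2 j)
  have hr : Measurable r := by fun_prop
  let ψ : (F → A) × (F → B) → ℂ := fun p => if hp : ∃ o, r o = p then Ξ (φ hp.choose) else 0
  have e : (fun o => Ξ (φ o)) = ψ ∘ r := by
    funext o
    have hp : ∃ o', r o' = r o := ⟨o, rfl⟩
    show _ = dite _ _ _
    rw [dif_pos hp]
    refine congrArg Ξ (h _ _ fun j hj => ?_)
    have := hp.choose_spec
    exact ⟨(congrFun (congrArg Prod.fst this) ⟨j, hj⟩).symm, (congrFun (congrArg Prod.snd this) ⟨j, hj⟩).symm⟩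
  rw [e]
  exact (integrable_map_measure (measurable_of_finite ψ).aestronglyMeasurable hr.aemeasurable).1
    Integrable.of_finite

end Crest.Agent.R192
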